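import Vale.Agent.P068.Core

namespace Vale.Agent.P068

open Matroid Set

variable {α : Type*} {M N : Matroid α}

/-- Satisfying intersection is symmetric. -/
theorem SatisfiesIntersection.symm (hE : M.E = N.E) (h : SatisfiesIntersection M N) :
    SatisfiesIntersection N M := by
  obtain ⟨JM, JN, hdj, hM, hN, hcl⟩ := h
  refine ⟨JN, JM, hdj.symm, by rwa [union_comm], by rwa [union_comm], ?_⟩
  rw [union_comm, hcl, hE]

/-- Duality: if `(M, N)` satisfies intersection then so does `(M✶, N✶)`. -/
theorem SatisfiesIntersection.dual (hE : M.E = N.E) (h : SatisfiesIntersection M N) :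
    SatisfiesIntersection M✶ N✶ := by
  classical
  obtain ⟨JM, JN, hdj, hM, hN, hcl⟩ := h
  obtain ⟨BM, hBM, hJBM⟩ := hM.exists_isBase_superset
  obtain ⟨BN, hBN, hJBN⟩ := hN.exists_isBase_superset
  have hJMBM : JM ⊆ BM := subset_union_left.trans hJBM
  have hJNBM : JN ⊆ BM := subset_union_right.trans hJBM
  have hJMBN : JM ⊆ BN := subset_union_left.trans hJBN
  have hJNBN : JN ⊆ BN := subset_union_right.trans hJBN
  set X := M.closure JM with hX
  have hXBM : X ∩ BM = JM := hBM.indep.closure_inter_eq_self_of_subset hJMBM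
  have hYBN : N.closure JN ∩ BN = JN := hBN.indep.closure_inter_eq_self_of_subset hJNBN
  have hYcl : ∀ z ∈ M.E, z ∉ X → z ∈ N.closure JN := by
    intro z hz hzX
    have : z ∈ M.closure JM ∪ N.closure JN := hcl ▸ hz
    exact this.resolve_left hzX
  have hJNX : ∀ z ∈ JN, z ∉ X := by
    intro z hzN hzX
    have : z ∈ X ∩ (JM ∪ JN) := ⟨hzX, Or.inr hzN⟩
    rw [hX, hM.closure_inter_eq_self_of_subset subset_union_left] at this
    exact disjoint_left.1 hdj this hzN
  have hBNE : BN ⊆ M.E := hE ▸ hBN.subset_ground
  refine ⟨(M.E \ X) \ BM, X \ BN, ?_, ?_, ?_, ?_⟩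
  · refine disjoint_left.2 ?_
    rintro z ⟨⟨-, hz⟩, -⟩ ⟨hz', -⟩
    exact hz hz'
  · have hsub : (M.E \ X) \ BM ∪ X \ BN ⊆ M.E := by
      refine union_subset (sdiff_subset.trans sdiff_subset) ?_
      exact sdiff_subset.trans (M.closure_subset_ground _)
    rw [dual_indep_iff_exists hsub]
    refine ⟨BM, hBM, disjoint_left.2 ?_⟩
    rintro z (⟨-, hz⟩ | ⟨hzX, hz⟩) hzB
    · exact hz hzB
    · have : z ∈ JM := hXBM ▸ ⟨hzX, hzB⟩
      exact hz (hJMBN this)
  · have hsub : (M.E \ X) \ BM ∪ X \ BN ⊆ N.E := by
      rw [← hE]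
      refine union_subset (sdiff_subset.trans sdiff_subset) ?_
      exact sdiff_subset.trans (M.closure_subset_ground _)
    rw [dual_indep_iff_exists hsub]
    refine ⟨BN, hBN, disjoint_left.2 ?_⟩
    rintro z (⟨⟨hzE, hzX⟩, hz⟩ | ⟨-, hz⟩) hzB
    · have : z ∈ JN := hYBN ▸ ⟨hYcl z hzE hzX, hzB⟩
      exact hz (hJNBM this)
    · exact hz hzB
  · apply subset_antisymm
    · refine union_subset (M✶.closure_subset_ground _) ?_
      have := N✶.closure_subset_ground (X \ BN)
      rwa [dual_ground, ← hE] at this
    intro z hz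
    rw [dual_ground] at hz
    by_cases hzX : z ∈ X
    · -- `z ∈ X`: closure in `N✶`
      right
      have hzN : z ∈ N.E := hE ▸ hz
      by_cases hzB : z ∈ BN
      · by_contra hcon
        have hI : N✶.Indep (X \ BN) := by
          rw [dual_indep_iff_exists (sdiff_subset.trans
            ((M.closure_subset_ground _).trans hE.subset))]
          exact ⟨BN, hBN, disjoint_sdiff_left⟩
        have hI' : N✶.Indep (insert z (X \ BN)) := by
          rw [hI.insert_indep_iff_of_notMem (fun h => h.2 hzB)]
          exact ⟨by simpa using hzN, hcon⟩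
        obtain ⟨-, B', hB', hdis⟩ := dual_indep_iff_exists'.1 hI'
        have hsub : B' ⊆ N.closure (BN \ {z}) := by
          intro w hw
          have hw1 : w ≠ z := by
            rintro rfl
            exact disjoint_left.1 hdis (mem_insert _ _) hw
          have hw2 : w ∉ X \ BN := fun h => disjoint_left.1 hdis (Or.inr h) hw
          by_cases hwX : w ∈ X
          · have hwB : w ∈ BN := by
              by_contra hc
              exact hw2 ⟨hwX, hc⟩
            exact N.subset_closure _ (sdiff_subset.trans hBN.subset_ground) ⟨hwB, hw1⟩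
          · have hwE : w ∈ M.E := hE ▸ hB'.subset_ground hw
            have h1 := hYcl w hwE hwX
            have hJNsub : JN ⊆ BN \ {z} := by
              intro v hv
              refine ⟨hJNBN hv, ?_⟩
              rintro rfl
              exact hJNX v hv hzX
            exact N.closure_subset_closure hJNsub h1
        have hclE : N.closure B' = N.E := hB'.closure_eq
        have hzcl : z ∈ N.closure (BN \ {z}) := by
          have := N.closure_subset_closure_of_subset_closure hsub
          exact this (hclE ▸ hzN)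
        exact hBN.indep.notMem_closure_sdiff_of_mem hzB hzcl
      · exact N✶.mem_closure_of_mem' (show z ∈ X \ BN from ⟨hzX, hzB⟩) (by simpa using hzN)
    · -- `z ∉ X`: closure in `M✶`
      left
      by_cases hzB : z ∈ BM
      · by_contra hcon
        have hI : M✶.Indep ((M.E \ X) \ BM) := by
          rw [dual_indep_iff_exists (sdiff_subset.trans sdiff_subset)]
          exact ⟨BM, hBM, disjoint_sdiff_left⟩
        have hI' : M✶.Indep (insert z ((M.E \ X) \ BM)) := by
          rw [hI.insert_indep_iff_of_notMem (fun h => h.2 hzB)]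
          exact ⟨by simpa using hz, hcon⟩
        obtain ⟨-, B', hB', hdis⟩ := dual_indep_iff_exists'.1 hI'
        have hsub : B' ⊆ M.closure (BM \ {z}) := by
          intro w hw
          have hw1 : w ≠ z := by
            rintro rfl
            exact disjoint_left.1 hdis (mem_insert _ _) hw
          have hw2 : w ∉ (M.E \ X) \ BM := fun h => disjoint_left.1 hdis (Or.inr h) hw
          by_cases hwX : w ∈ X
          · have hJMsub : JM ⊆ BM \ {z} := by
              intro v hv
              refine ⟨hJMBM hv, ?_⟩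
              rintro rfl
              exact hzX (M.mem_closure_of_mem' hv hz)
            exact M.closure_subset_closure hJMsub hwX
          · have hwE : w ∈ M.E := hB'.subset_ground hw
            have hwB : w ∈ BM := by
              by_contra hc
              exact hw2 ⟨⟨hwE, hwX⟩, hc⟩
            exact M.subset_closure _ (sdiff_subset.trans hBM.subset_ground) ⟨hwB, hw1⟩
        have hclE : M.closure B' = M.E := hB'.closure_eq
        have hzcl : z ∈ M.closure (BM \ {z}) := by
          have := M.closure_subset_closure_of_subset_closure hsub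
          exact this (hclE ▸ hz)
        exact hBM.indep.notMem_closure_sdiff_of_mem hzB hzcl
      · exact M✶.mem_closure_of_mem' (show z ∈ (M.E \ X) \ BM from ⟨⟨hz, hzX⟩, hzB⟩)
          (by simpa using hz)

theorem satisfiesIntersection_dual_iff (hE : M.E = N.E) :
    SatisfiesIntersection M✶ N✶ ↔ SatisfiesIntersection M N := by
  refine ⟨fun h => ?_, SatisfiesIntersection.dual hE⟩
  have := h.dual (by simpa using hE)
  simpa using this

/-- Finite relative rank over an independent set. -/
lemma contract_eRank_ne_top {A : Matroid α} {I Y W : Set α} (hI : A.Indep I) (hIY : I ⊆ Y)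
    (hY : Y ⊆ A.closure I ∪ W) (hW : A.IsRkFinite W) : ((A ↾ Y) ／ I).eRank ≠ ⊤ := by
  obtain ⟨B, hB⟩ := ((A ↾ Y) ／ I).exists_isBase
  have hI' : (A ↾ Y).Indep I := (restrict_indep_iff).2 ⟨hI, hIY⟩
  obtain ⟨hB1, hB2⟩ := hI'.contract_isBase_iff.1 hB
  have hB3 : A.Indep (B ∪ I) := ((restrict_indep_iff).1 hB1.indep).1
  have hBY : B ∪ I ⊆ Y := ((restrict_indep_iff).1 hB1.indep).2
  have hBW : B ⊆ W := by
    intro z hz
    rcases hY (hBY (Or.inl hz)) with h | h
    · have : z ∈ A.closure I ∩ (B ∪ I) := ⟨h, Or.inl hz⟩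
      rw [hB3.closure_inter_eq_self_of_subset subset_union_right] at this
      exact absurd this (disjoint_left.1 hB2 hz)
    · exact h
  have hfin : B.Finite := hW.finite_of_indep_subset (hB3.subset subset_union_left) hBW
  rw [← hB.encard_eq_eRank]
  exact hfin.encard_lt_top.ne

/-- **Almost tight criterion**, with `RankFinite`. -/
theorem sat_of_rankFinite (hE : M.E = N.E) {J X : Set α} (hM : M.Indep J) (hN : N.Indep J)
    (h1 : ((M ↾ X) ／ (J ∩ X)).RankFinite) (h2 : ((N ↾ (N.E \ X)) ／ (J \ X)).RankFinite) :
    SatisfiesIntersection M N := by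
  refine sat_of_slack_ne_top (X := X) hE hM hN ?_
  unfold slack
  exact WithTop.add_ne_top.2 ⟨eRank_ne_top_iff _ |>.2 h1, eRank_ne_top_iff _ |>.2 h2⟩

/-- The class: ground set is a set of finite rank together with an independent set. -/
theorem sat_of_rkFinite_union_indep (hE : M.E = N.E) {A B : Set α} (hAB : A ∪ B = N.E)
    (hA : N.IsRkFinite A) (hB : N.Indep B) : SatisfiesIntersection M N := by
  have hBE : B ⊆ M.E := by rw [hE]; exact hB.subset_ground
  obtain ⟨I, hI⟩ := M.exists_isBasis B hBE
  have hIN : N.Indep I := hB.subset hI.subset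
  have h1 : ((M ↾ B) ／ (I ∩ B)).eRank ≠ ⊤ := by
    rw [inter_eq_self_of_subset_left hI.subset]
    refine contract_eRank_ne_top hI.indep hI.subset ?_ (IsRkFinite.empty M)
    rw [union_empty]
    exact hI.subset_closure
  have h2 : ((N ↾ (N.E \ B)) ／ (I \ B)).eRank ≠ ⊤ := by
    rw [sdiff_eq_empty.2 hI.subset]
    refine contract_eRank_ne_top N.empty_indep (empty_subset _) ?_ hA
    intro z hz
    have : z ∈ A ∪ B := hAB ▸ hz.1
    rcases this with h | h
    · exact Or.inr h
    · exact absurd h hz.2
  refine sat_of_slack_ne_top (X := B) hE hI.indep hIN ?_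
  unfold slack
  exact WithTop.add_ne_top.2 ⟨h1, h2⟩

/-- Extending a solution from `E'` to the ground set when the rest has finite `N`-rank. -/
theorem sat_of_restrict (hE : M.E = N.E) {E' : Set α} (hE' : E' ⊆ M.E)
    (hfin : N.IsRkFinite (M.E \ E')) (h : SatisfiesIntersection (M ↾ E') (N ↾ E')) :
    SatisfiesIntersection M N := by
  classical
  obtain ⟨JM, JN, hdj, hM, hN, hcl⟩ := h
  rw [restrict_indep_iff] at hM hN
  have hJE' : JM ∪ JN ⊆ E' := hM.2
  have hJME' : JM ⊆ E' := subset_union_left.trans hJE'
  have hJNE' : JN ⊆ E' := subset_union_right.trans hJE'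
  have hE'N : E' ⊆ N.E := hE ▸ hE'
  rw [restrict_closure_eq M hJME' hE', restrict_closure_eq N hJNE' hE'N, restrict_ground_eq] at hcl
  set X := M.closure JM ∩ E' with hX
  have hJMX : JM ⊆ X :=
    subset_inter (M.subset_closure _ (subset_union_left.trans hM.1.subset_ground)) hJME'
  have hJNX : Disjoint JN X := by
    refine disjoint_left.2 fun z hzN hzX => ?_
    have : z ∈ M.closure JM ∩ (JM ∪ JN) := ⟨hzX.1, Or.inr hzN⟩
    rw [hM.1.closure_inter_eq_self_of_subset subset_union_left] at this
    exact disjoint_left.1 hdj this hzN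
  have hJ1 : (JM ∪ JN) ∩ X = JM := by
    rw [union_inter_distrib_right, inter_eq_self_of_subset_left hJMX, hJNX.inter_eq, union_empty]
  have hJ2 : (JM ∪ JN) \ X = JN := by
    rw [union_sdiff_distrib, sdiff_eq_empty.2 hJMX, empty_union,
      sdiff_eq_left.2 hJNX]
  refine sat_of_slack_ne_top (J := JM ∪ JN) (X := X) hE hM.1 hN.1 ?_
  unfold slack
  rw [hJ1, hJ2]
  refine WithTop.add_ne_top.2 ⟨?_, ?_⟩
  · refine contract_eRank_ne_top (hM.1.subset subset_union_left) hJMX ?_ (IsRkFinite.empty M)
    rw [union_empty]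
    exact fun z hz => hz.1
  · refine contract_eRank_ne_top (hN.1.subset subset_union_right) ?_ ?_ hfin
    · exact subset_sdiff.2 ⟨hN.1.subset_ground.trans' subset_union_right, hJNX⟩
    · intro z hz
      by_cases hzE' : z ∈ E'
      · left
        have : z ∈ X ∪ N.closure JN ∩ E' := by rw [hcl]; exact hzE'
        rcases this with h | h
        · exact absurd h hz.2
        · exact h.1
      · right
        exact ⟨hE ▸ hz.1, hzE'⟩

end Vale.Agent.P068
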