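import Mathlib.Combinatorics.Matroid.Closure

namespace Vale.Agent.P068

open Matroid Set

variable {α : Type*}

/-- The pair `(M, N)` satisfies intersection: some set `JM ∪ JN` independent in both, with
`JM`, `JN` disjoint, has `cl_M JM ∪ cl_N JN` equal to the ground set of `M`. -/
def SatisfiesIntersection (M N : Matroid α) : Prop :=
  ∃ JM JN : Set α, Disjoint JM JN ∧ M.Indep (JM ∪ JN) ∧ N.Indep (JM ∪ JN) ∧
    M.closure JM ∪ N.closure JN = M.E

end Vale.Agent.P068
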