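import Mathlib.Combinatorics.Matroid.Minor.Contract
import Mathlib.Combinatorics.Matroid.Rank.ENat
import Vale.Agent.P068.Defs

namespace Vale.Agent.P068

open Matroid Set

variable {α : Type*} {M N : Matroid α} {J J' X : Set α} {x y x0 e : α}

/-- Walks in the exchange graph of `J`, ending at a sink, of `n` double steps. -/
def Wk (M N : Matroid α) (J : Set α) : ℕ → α → Prop
  | 0, x => x ∉ J ∧ N.Indep (insert x J)
  | n + 1, x => x ∉ J ∧ ∃ y ∈ J, ∃ x', N.Indep (insert x (J \ {y})) ∧
      M.Indep (insert x' (J \ {y})) ∧ Wk M N J n x'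

/-- There is an augmenting walk of `n` double steps. -/
def Aug (M N : Matroid α) (J : Set α) (n : ℕ) : Prop :=
  ∃ x, M.Indep (insert x J) ∧ Wk M N J n x

lemma Wk.notMem {n : ℕ} (h : Wk M N J n x) : x ∉ J := by
  cases n with
  | zero => exact h.1
  | succ n => exact h.1

/-- An element of the closure of an independent set `I` that is in the closure of `I - y` for each
`y ∈ I \ A` is in the closure of `A`. -/
lemma mem_closure_of_forall_sdiff {I A : Set α} (hI : M.Indep I) (hA : A ⊆ I)
    (he : e ∈ M.closure I) (h : ∀ y ∈ I \ A, e ∈ M.closure (I \ {y})) : e ∈ M.closure A := by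
  have hA' : A = ⋂₀ (insert I ((fun y => I \ {y}) '' (I \ A))) := by
    ext z
    constructor
    · intro hz Z hZ
      rcases hZ with rfl | ⟨y, hy, rfl⟩
      · exact hA hz
      · refine ⟨hA hz, ?_⟩
        rintro rfl
        exact hy.2 hz
    · intro h
      have hzI : z ∈ I := h I (mem_insert _ _)
      by_contra hzA
      have := h (I \ {z}) (Or.inr ⟨z, ⟨hzI, hzA⟩, rfl⟩)
      exact this.2 rfl
  have key := hI.closure_sInter_eq_biInter_closure_of_forall_subset
    (Js := insert I ((fun y => I \ {y}) '' (I \ A))) (insert_nonempty _ _) (by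
      intro Z hZ
      rcases hZ with rfl | ⟨y, -, rfl⟩
      · exact Subset.rfl
      · exact sdiff_subset)
  rw [← hA'] at key
  rw [key]
  simp only [mem_iInter, mem_insert_iff]
  intro Z hZ
  rcases hZ with rfl | ⟨y, hy, rfl⟩
  · exact he
  · exact h y hy

/-- **No augmenting walk implies a covering split of `J`.** -/
theorem exists_split_of_no_aug (hE : M.E = N.E) (hM : M.Indep J) (hN : N.Indep J)
    (h : ∀ n, ¬ Aug M N J n) : ∃ JM JN : Set α, Disjoint JM JN ∧ JM ∪ JN = J ∧
      M.closure JM ∪ N.closure JN = M.E := by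
  classical
  set R : Set α := {x | ∃ n, Wk M N J n x} with hR
  set JM : Set α := {y ∈ J | ∃ x', M.Indep (insert x' (J \ {y})) ∧ x' ∈ R} with hJM
  set JN : Set α := J \ JM with hJN
  have hJMJ : JM ⊆ J := fun y hy => hy.1
  have hU : JM ∪ JN = J := by
    rw [hJN, union_sdiff_cancel hJMJ]
  refine ⟨JM, JN, disjoint_sdiff_right, hU, ?_⟩
  apply subset_antisymm
  · exact union_subset (M.closure_subset_ground _) (hE ▸ N.closure_subset_ground _)
  intro z hz
  by_cases hzJ : z ∈ J
  · by_cases hzM : z ∈ JM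
    · exact Or.inl (M.mem_closure_of_mem' hzM hz)
    · exact Or.inr (N.mem_closure_of_mem' (show z ∈ JN from ⟨hzJ, hzM⟩) (hE ▸ hz))
  by_cases hzR : z ∈ R
  · left
    obtain ⟨n, hn⟩ := hzR
    have h1 : z ∈ M.closure J := by
      by_contra hcon
      exact h n ⟨z, (hM.insert_indep_iff_of_notMem hzJ).2 ⟨hz, hcon⟩, hn⟩
    refine mem_closure_of_forall_sdiff hM hJMJ h1 ?_
    intro y hy
    by_contra hcon
    refine hy.2 ⟨hy.1, z, ?_, n, hn⟩
    exact ((hM.subset sdiff_subset).insert_indep_iff_of_notMem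
      (fun hz' => hzJ hz'.1)).2 ⟨hz, hcon⟩
  · right
    have hzN : z ∈ N.E := hE ▸ hz
    have h1 : z ∈ N.closure J := by
      by_contra hcon
      exact hzR ⟨0, hzJ, (hN.insert_indep_iff_of_notMem hzJ).2 ⟨hzN, hcon⟩⟩
    refine mem_closure_of_forall_sdiff hN sdiff_subset h1 ?_
    intro y hy
    have hyM : y ∈ JM := by
      by_contra hcon
      exact hy.2 ⟨hy.1, hcon⟩
    obtain ⟨-, x', hx'M, n, hn⟩ := hyM
    by_contra hcon
    refine hzR ⟨n + 1, hzJ, y, hy.1, x', ?_, hx'M, hn⟩
    exact ((hN.subset sdiff_subset).insert_indep_iff_of_notMem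
      (fun hz' => hzJ hz'.1)).2 ⟨hzN, hcon⟩

/-- **No augmenting walk implies intersection.** -/
theorem sat_of_no_aug (hE : M.E = N.E) (hM : M.Indep J) (hN : N.Indep J)
    (h : ∀ n, ¬ Aug M N J n) : SatisfiesIntersection M N := by
  obtain ⟨JM, JN, hdj, hU, hcl⟩ := exists_split_of_no_aug hE hM hN h
  exact ⟨JM, JN, hdj, by rwa [hU], by rwa [hU], hcl⟩

/-- Closure is unchanged by a basis exchange. -/
lemma closure_exchange_eq (hJ : M.Indep J) (hy : y ∈ J) (hx : x ∈ M.closure J)
    (hxy : M.Indep (insert x (J \ {y}))) (hxJ : x ∉ J) :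
    M.closure (insert x (J \ {y})) = M.closure J := by
  have hJy : insert y (J \ {y}) = J := insert_sdiff_self_of_mem hy
  have hxnot : x ∉ M.closure (J \ {y}) := by
    have := ((hJ.subset sdiff_subset).insert_indep_iff_of_notMem (e := x)
      (fun hz' => hxJ hz'.1)).1 hxy
    exact this.2
  have hex : x ∈ M.closure (insert y (J \ {y})) \ M.closure (J \ {y}) := by
    rw [hJy]; exact ⟨hx, hxnot⟩
  have hy' := (closure_exchange hex).1
  apply subset_antisymm
  · apply M.closure_subset_closure_of_subset_closure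
    intro z hz
    rcases hz with rfl | hz
    · exact hx
    · exact M.subset_closure _ hJ.subset_ground hz.1
  · apply M.closure_subset_closure_of_subset_closure
    intro z hz
    by_cases hzy : z = y
    · rw [hzy]; exact hy'
    · exact M.subset_closure _ hxy.subset_ground (Or.inr ⟨hz, hzy⟩)

/-- Adding a source to an exchanged set keeps independence. -/
lemma indep_insert_insert (hJ : M.Indep J) (hy : y ∈ J) (hx0 : M.Indep (insert x0 J))
    (hx0J : x0 ∉ J) (hx : ¬ M.Indep (insert x J)) (hxJ : x ∉ J)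
    (hxy : M.Indep (insert x (J \ {y}))) : M.Indep (insert x0 (insert x (J \ {y}))) := by
  have hxE : x ∈ M.E := hxy.subset_ground (mem_insert _ _)
  have hxcl : x ∈ M.closure J := by
    by_contra hcon
    exact hx ((hJ.insert_indep_iff_of_notMem hxJ).2 ⟨hxE, hcon⟩)
  have hcl := closure_exchange_eq hJ hy hxcl hxy hxJ
  have hx0' := (hJ.insert_indep_iff_of_notMem hx0J).1 hx0
  rw [hxy.insert_indep_iff]
  left
  rw [hcl]
  exact hx0'

variable (M N) in
/-- The transport of walks. -/
theorem wk_transport (hM : M.Indep J) (hN : N.Indep J) (hy : y ∈ J)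
    (hx0M : M.Indep (insert x0 J)) (hx0J : x0 ∉ J) (hx0N : N.Indep (insert x0 (J \ {y})))
    {k : ℕ} (hmin : ∀ j ≤ k, ¬ Aug M N J j) :
    ∀ m ≤ k, ∀ x, Wk M N J m x → Wk M N (insert x0 (J \ {y})) m x := by
  have hsrc : ∀ j ≤ k, ∀ z, Wk M N J j z → ¬ M.Indep (insert z J) :=
    fun j hj z hz hzM => hmin j hj ⟨z, hzM, hz⟩
  have hx0cl : x0 ∈ N.closure J := by
    by_contra hcon
    have hx0E : x0 ∈ N.E := hx0N.subset_ground (mem_insert _ _)
    have : N.Indep (insert x0 J) := (hN.insert_indep_iff_of_notMem hx0J).2 ⟨hx0E, hcon⟩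
    exact hmin 0 (Nat.zero_le _) ⟨x0, hx0M, hx0J, this⟩
  have hclN := closure_exchange_eq hN hy hx0cl hx0N hx0J
  intro m
  induction m with
  | zero =>
    intro _ x hx
    obtain ⟨hxJ, hxN⟩ := hx
    have hxx0 : x ≠ x0 := by
      rintro rfl
      exact hmin 0 (Nat.zero_le _) ⟨x, hx0M, hxJ, hxN⟩
    have hxJ1 : x ∉ insert x0 (J \ {y}) := by
      rintro (h | h)
      · exact hxx0 h
      · exact hxJ h.1
    refine ⟨hxJ1, ?_⟩
    rw [hx0N.insert_indep_iff]
    left
    rw [hclN]
    exact (hN.insert_indep_iff_of_notMem hxJ).1 hxN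
  | succ m ih =>
    intro hm x hx
    obtain ⟨hxJ, y', hy', x'', hxN, hx''M, hWk⟩ := hx
    have hm' : m ≤ k := Nat.le_of_succ_le hm
    have hW1 := ih hm' x'' hWk
    have hx''J : x'' ∉ J := hWk.notMem
    -- `x0` is not an `N`-neighbour of `y'`
    have hx0y' : ¬ N.Indep (insert x0 (J \ {y'})) := by
      intro hcon
      exact hmin (m + 1) hm ⟨x0, hx0M, hx0J, y', hy', x'', hcon, hx''M, hWk⟩
    have hy'y : y' ≠ y := by
      rintro rfl
      exact hx0y' hx0N
    have hxx0 : x ≠ x0 := by
      rintro rfl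
      exact hmin (m + 1) hm ⟨x, hx0M, hxJ, y', hy', x'', hxN, hx''M, hWk⟩
    have hxJ1 : x ∉ insert x0 (J \ {y}) := by
      rintro (h | h)
      · exact hxx0 h
      · exact hxJ h.1
    have hy'J1 : y' ∈ insert x0 (J \ {y}) := Or.inr ⟨hy', hy'y⟩
    refine ⟨hxJ1, y', hy'J1, x'', ?_, ?_, hW1⟩
    · -- the `N`-arc
      have hx0cl' : x0 ∈ N.closure (J \ {y'}) := by
        by_contra hcon
        have hx0E : x0 ∈ N.E := hx0N.subset_ground (mem_insert _ _)
        exact hx0y' (((hN.subset sdiff_subset).insert_indep_iff_of_notMem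
          (fun hz' => hx0J hz'.1)).2 ⟨hx0E, hcon⟩)
      have hsub : insert x0 (J \ {y}) \ {y'} ⊆ N.closure (J \ {y'}) := by
        rintro z ⟨hz | hz, hzy'⟩
        · rw [hz]; exact hx0cl'
        · exact N.subset_closure _ (sdiff_subset.trans hN.subset_ground) ⟨hz.1, hzy'⟩
      have hcl := N.closure_subset_closure_of_subset_closure hsub
      have hxnot : x ∉ N.closure (J \ {y'}) :=
        (((hN.subset sdiff_subset).insert_indep_iff_of_notMem
          (fun hz' => hxJ hz'.1)).1 hxN).2
      rw [(hx0N.subset sdiff_subset).insert_indep_iff]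
      left
      exact ⟨hxN.subset_ground (mem_insert _ _), fun h => hxnot (hcl h)⟩
    · -- the `M`-arc
      have hbig := indep_insert_insert hM hy' hx0M hx0J (hsrc m hm' x'' hWk) hx''J hx''M
      refine hbig.subset ?_
      rintro z (rfl | ⟨hz | hz, hzy'⟩)
      · exact Or.inr (Or.inl rfl)
      · exact Or.inl hz
      · exact Or.inr (Or.inr ⟨hz.1, hzy'⟩)

/-- One augmentation, decreasing any potential `φ`. -/
theorem exists_augment {φ : Set α → ℕ∞}
    (hφ : ∀ J x, x ∉ J → M.Indep (insert x J) → N.Indep (insert x J) →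
      φ J = φ (insert x J) + 1) (n : ℕ) :
    ∀ J, M.Indep J → N.Indep J → Aug M N J n → ∃ J', M.Indep J' ∧ N.Indep J' ∧ φ J' + 1 = φ J := by
  classical
  induction n using Nat.strong_induction_on with
  | _ n IH =>
    intro J hM hN hA
    have hex : ∃ j, Aug M N J j := ⟨n, hA⟩
    have hspec := Nat.find_spec hex
    have hle : Nat.find hex ≤ n := Nat.find_min' hex hA
    have hminf : ∀ j < Nat.find hex, ¬ Aug M N J j := fun j hj => Nat.find_min hex hj
    generalize Nat.find hex = m at hspec hle hminf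
    cases m with
    | zero =>
      obtain ⟨x, hxM, hxJ, hxN⟩ := hspec
      exact ⟨insert x J, hxM, hxN, (hφ J x hxJ hxM hxN).symm⟩
    | succ k =>
      obtain ⟨x0, hx0M, hx0J, y, hy, x1, hx0N, hx1M, hWk⟩ := hspec
      have hmin : ∀ j ≤ k, ¬ Aug M N J j := fun j hj => hminf j (Nat.lt_succ_of_le hj)
      set J1 := insert x0 (J \ {y}) with hJ1
      have hJ1M : M.Indep J1 := hx0M.subset (insert_subset_insert sdiff_subset)
      have hx1J : x1 ∉ J := hWk.notMem
      have hx1src : ¬ M.Indep (insert x1 J) := fun hc => hmin k le_rfl ⟨x1, hc, hWk⟩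
      have hAug : Aug M N J1 k := by
        refine ⟨x1, ?_, wk_transport M N hM hN hy hx0M hx0J hx0N hmin k le_rfl x1 hWk⟩
        have hbig := indep_insert_insert hM hy hx0M hx0J hx1src hx1J hx1M
        rwa [hJ1, insert_comm]
      obtain ⟨J', hJ'M, hJ'N, hJ'⟩ :=
        IH k (Nat.lt_of_succ_le hle) J1 hJ1M hx0N hAug
      refine ⟨J', hJ'M, hJ'N, ?_⟩
      rw [hJ']
      -- the potential does not change under an exchange
      have hJy : insert y (J \ {y}) = J := insert_sdiff_self_of_mem hy
      have h1 : φ (J \ {y}) = φ J + 1 := by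
        have := hφ (J \ {y}) y (by simp) (by rwa [hJy]) (by rwa [hJy])
        rwa [hJy] at this
      have h2 : φ (J \ {y}) = φ J1 + 1 :=
        hφ (J \ {y}) x0 (fun h => hx0J h.1) hJ1M hx0N
      have h3 : φ J1 + 1 = φ J + 1 := h2.symm.trans h1
      exact ENat.add_left_injective_of_ne_top ENat.one_ne_top h3

/-- Contracting one more independent element lowers the rank by one. -/
lemma eRank_contract_of_indep {A : Matroid α} {T : Set α} (hT : A.Indep T) :
    A.eRank = (A ／ T).eRank + T.encard := by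
  obtain ⟨B, hB⟩ := (A ／ T).exists_isBase
  obtain ⟨hB1, hB2⟩ := hT.contract_isBase_iff.1 hB
  rw [← hB1.encard_eq_eRank, encard_union_eq hB2, hB.encard_eq_eRank]

lemma eRank_contract_insert {A : Matroid α} {I : Set α} {x : α} (h : A.Indep (insert x I))
    (hx : x ∉ I) : (A ／ I).eRank = (A ／ insert x I).eRank + 1 := by
  have hI : A.Indep I := h.subset (subset_insert _ _)
  have hx' : (A ／ I).Indep {x} := by
    rw [hI.contract_indep_iff]
    refine ⟨by simpa using hx, ?_⟩
    rwa [singleton_union]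
  have := eRank_contract_of_indep hx'
  rwa [contract_contract, union_singleton, encard_singleton] at this

/-- The slack of a common independent set `J` with respect to a set `X`. -/
noncomputable def slack (M N : Matroid α) (X J : Set α) : ℕ∞ :=
  ((M ↾ X) ／ (J ∩ X)).eRank + ((N ↾ (N.E \ X)) ／ (J \ X)).eRank

lemma slack_insert {x : α} (hxJ : x ∉ J) (hM : M.Indep (insert x J)) (hN : N.Indep (insert x J)) :
    slack M N X J = slack M N X (insert x J) + 1 := by
  unfold slack
  by_cases hxX : x ∈ X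
  · have h1 : insert x J ∩ X = insert x (J ∩ X) := insert_inter_of_mem hxX
    have h2 : insert x J \ X = J \ X := insert_sdiff_of_mem _ hxX
    rw [h1, h2]
    have h3 : (M ↾ X).Indep (insert x (J ∩ X)) := by
      rw [restrict_indep_iff]
      refine ⟨hM.subset ?_, insert_subset hxX inter_subset_right⟩
      exact insert_subset_insert inter_subset_left
    rw [eRank_contract_insert h3 (fun h => hxJ h.1)]
    exact add_right_comm _ _ _
  · have h1 : insert x J ∩ X = J ∩ X := insert_inter_of_notMem hxX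
    have h2 : insert x J \ X = insert x (J \ X) := insert_sdiff_of_notMem _ hxX
    rw [h1, h2]
    have h3 : (N ↾ (N.E \ X)).Indep (insert x (J \ X)) := by
      rw [restrict_indep_iff]
      refine ⟨hN.subset (insert_subset_insert sdiff_subset), ?_⟩
      refine insert_subset ⟨hN.subset_ground (mem_insert _ _), hxX⟩ ?_
      exact subset_sdiff.2 ⟨(hN.subset (subset_insert _ _)).subset_ground.trans' sdiff_subset, disjoint_sdiff_left⟩
    rw [eRank_contract_insert h3 (fun h => hxJ h.1)]
    exact (add_assoc _ _ _).symm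

/-- **Almost tight implies intersection.** -/
theorem sat_of_slack_ne_top (hE : M.E = N.E) (hM : M.Indep J) (hN : N.Indep J)
    (h : slack M N X J ≠ ⊤) : SatisfiesIntersection M N := by
  classical
  set S : Set ℕ∞ := {v | ∃ K, M.Indep K ∧ N.Indep K ∧ slack M N X K = v} with hS
  have hne : S.Nonempty := ⟨_, J, hM, hN, rfl⟩
  obtain ⟨v, ⟨K, hKM, hKN, hKv⟩, hmin⟩ := wellFounded_lt.has_min S hne
  have hvle : v ≤ slack M N X J := by
    by_contra hcon
    exact hmin _ ⟨J, hM, hN, rfl⟩ (not_le.1 hcon)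
  have hKtop : slack M N X K ≠ ⊤ := by
    rw [hKv]
    exact ne_top_of_le_ne_top h hvle
  refine sat_of_no_aug hE hKM hKN (fun n hA => ?_)
  obtain ⟨K', hK'M, hK'N, hK'⟩ := exists_augment (M := M) (N := N) (φ := slack M N X)
    (fun _ _ hx hxM hxN => slack_insert hx hxM hxN) n K hKM hKN hA
  have hK'top : slack M N X K' ≠ ⊤ := by
    intro hc
    rw [hc] at hK'
    exact hKtop (by rw [← hK']; simp)
  refine hmin _ ⟨K', hK'M, hK'N, rfl⟩ ?_
  rw [← hKv, ← hK']
  exact ENat.lt_add_one_iff hK'top |>.2 le_rfl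

end Vale.Agent.P068
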