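import Vale.Agent.P068.Closure

namespace Vale.Agent.P068

open Matroid Set

variable {α : Type*} {M N : Matroid α} {e : α}

/-! ### Independence over a set -/

/-- Closure characterisation of independence in a contraction. -/
lemma contract_indep_iff_closure {Y P : Set α} :
    (M ／ Y).Indep P ↔ P ⊆ M.E ∧ ∀ p ∈ P, p ∉ M.closure ((P \ {p}) ∪ Y) := by
  rw [indep_iff_forall_notMem_closure_sdiff', contract_ground]
  constructor
  · rintro ⟨hP, h⟩
    refine ⟨hP.trans sdiff_subset, fun p hp hc => ?_⟩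
    refine h p hp ?_
    rw [contract_closure_eq]
    exact ⟨hc, (hP hp).2⟩
  · rintro ⟨hP, h⟩
    have hd : ∀ p ∈ P, p ∉ Y := fun p hp hY =>
      h p hp (M.mem_closure_of_mem' (Or.inr hY) (hP hp))
    refine ⟨fun p hp => ⟨hP hp, hd p hp⟩, fun p hp hc => ?_⟩
    rw [contract_closure_eq] at hc
    exact h p hp hc.1

/-- Independence over a set passes to subsets of that set. -/
lemma contract_indep_mono {Y Y' P : Set α} (h : Y' ⊆ Y) (hP : (M ／ Y).Indep P) :
    (M ／ Y').Indep P := by
  rw [contract_indep_iff_closure] at hP ⊢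
  exact ⟨hP.1, fun p hp hc => hP.2 p hp
    (M.closure_subset_closure (union_subset_union_right _ h) hc)⟩

lemma contract_indep_disjoint {Y P : Set α} (hP : (M ／ Y).Indep P) : Disjoint P Y := by
  have := hP.subset_ground
  exact (subset_sdiff.1 this).2

/-- Gluing independent sets over nested sets. -/
lemma contract_indep_union {P P' Y Y' : Set α} (hP : (M ／ Y).Indep P) (hP' : (M ／ Y').Indep P')
    (h1 : P' ⊆ Y) (h2 : Y' ⊆ Y) : (M ／ Y').Indep (P ∪ P') := by
  rw [union_comm, hP'.union_indep_iff_contract_indep, contract_contract]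
  have hd : Disjoint P Y := contract_indep_disjoint hP
  have : P \ P' = P := sdiff_eq_left.2 (hd.mono_right h1)
  rw [this]
  exact contract_indep_mono (union_subset h2 h1) hP

/-- Independence over `Y` is inherited by sets spanned by `Y`. -/
lemma contract_indep_of_subset_closure {P Y Y' : Set α} (hP : (M ／ Y).Indep P)
    (h : Y' ⊆ M.closure Y) : (M ／ Y').Indep P := by
  rw [contract_indep_iff_closure] at hP ⊢
  refine ⟨hP.1, fun p hp hc => hP.2 p hp ?_⟩
  refine M.closure_subset_closure_of_subset_closure ?_ hc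
  refine union_subset ?_ ?_
  · exact fun z hz => M.mem_closure_of_mem' (Or.inl hz) (hP.1 hz.1)
  · exact h.trans (M.closure_subset_closure subset_union_right)

/-- Skewness: an independent set over `V` does not help to span elements of `V`. -/
lemma mem_closure_of_skew {J V S : Set α} {x : α} (hJ : (M ／ V).Indep J) (hS : S ⊆ V)
    (hxV : x ∈ V) (hxE : x ∈ M.E) (hx : x ∈ M.closure (J ∪ S)) : x ∈ M.closure S := by
  by_contra hc
  have hnl : (M ／ S).IsNonloop x := contract_isNonloop_iff.2 ⟨hxE, hc⟩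
  have hJ' : (M ／ S ／ {x}).Indep J := by
    rw [contract_contract]
    exact contract_indep_mono (union_subset hS (singleton_subset_iff.2 hxV)) hJ
  obtain ⟨hxJ, hins⟩ := hnl.contractElem_indep_iff.1 hJ'
  have hxS : x ∉ S := fun h => hc (M.mem_closure_of_mem' h hxE)
  have h1 := ((hins.subset (subset_insert _ _)).insert_indep_iff_of_notMem hxJ).1 hins
  apply h1.2
  rw [contract_closure_eq]
  exact ⟨hx, hxS⟩

/-! ### Waves -/

/-- An `N`-wave with respect to `M`: `P` is an `N`-basis of `X`, and is `M`-independent over the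
complement of `X`. -/
def IsWave (M N : Matroid α) (X P : Set α) : Prop :=
  N.IsBasis P X ∧ (M ／ (M.E \ X)).Indep P

/-- The pair `(M, N)` is unhindered: `P` `M`-spans `X` over the complement of `X`, for every wave
`(X, P)`. -/
def Unhindered (M N : Matroid α) : Prop :=
  ∀ X P, IsWave M N X P → X ⊆ M.closure (P ∪ (M.E \ X))

/-- A pre-wave: like a wave, but `Q` only spans `X` in `N`. -/
def PreWave (M N : Matroid α) (X Q : Set α) : Prop :=
  Q ⊆ X ∧ X ⊆ N.closure Q ∧ (M ／ (M.E \ X)).Indep Q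

lemma PreWave.union {X Q X' Q' : Set α} (h : PreWave M N X Q) (h' : PreWave M N X' Q') :
    PreWave M N (X ∪ X') (Q ∪ (Q' \ X)) := by
  obtain ⟨h1, h2, h3⟩ := h
  obtain ⟨h1', h2', h3'⟩ := h'
  refine ⟨?_, ?_, ?_⟩
  · exact union_subset (h1.trans subset_union_left)
      (sdiff_subset.trans (h1'.trans subset_union_right))
  · have hQ : X ⊆ N.closure (Q ∪ (Q' \ X)) :=
      h2.trans (N.closure_subset_closure subset_union_left)
    refine union_subset hQ ?_
    refine h2'.trans (N.closure_subset_closure_of_subset_closure ?_)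
    intro z hz
    by_cases hzX : z ∈ X
    · exact hQ hzX
    · exact N.mem_closure_of_mem' (Or.inr ⟨hz, hzX⟩)
        (N.closure_subset_ground _ (h2' (h1' hz)))
  · have hT : (M ／ (M.E \ (X ∪ X'))).Indep (Q' \ X) := by
      refine contract_indep_mono ?_ (h3'.subset sdiff_subset)
      exact sdiff_subset_sdiff_right subset_union_right
    refine contract_indep_union h3 hT ?_ ?_
    · intro z hz
      exact ⟨(contract_indep_iff_closure.1 h3').1 hz.1, hz.2⟩
    · exact sdiff_subset_sdiff_right subset_union_left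

/-- There is a largest wave. -/
theorem exists_largest_wave : ∃ X P, IsWave M N X P ∧ ∀ X' P', IsWave M N X' P' → X' ⊆ X := by
  classical
  let T := {p : Set α × Set α // PreWave M N p.1 p.2}
  let r : T → T → Prop := fun a b =>
    a.1.1 ⊆ b.1.1 ∧ a.1.2 ⊆ b.1.2 ∧ Disjoint (b.1.2 \ a.1.2) a.1.1
  have htrans : ∀ {a b c : T}, r a b → r b c → r a c := by
    rintro a b c ⟨h1, h2, h3⟩ ⟨h1', h2', h3'⟩
    refine ⟨h1.trans h1', h2.trans h2', disjoint_left.2 ?_⟩
    intro z hz hzX
    by_cases hzb : z ∈ b.1.2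
    · exact disjoint_left.1 h3 ⟨hzb, hz.2⟩ hzX
    · exact disjoint_left.1 h3' ⟨hz.1, hzb⟩ (h1 hzX)
  have hempty : PreWave M N ∅ ∅ := by
    refine ⟨Subset.rfl, empty_subset _, ?_⟩
    exact empty_indep _
  have hchain : ∀ c : Set T, IsChain r c → ∃ ub : T, ∀ a ∈ c, r a ub := by
    intro c hc
    let Xu : Set α := ⋃ a ∈ c, (a : T).1.1
    let Qu : Set α := ⋃ a ∈ c, (a : T).1.2
    have hXu : ∀ a ∈ c, (a : T).1.1 ⊆ Xu := fun a ha => subset_biUnion_of_mem (u := fun a : T => a.1.1) ha
    have hQu : ∀ a ∈ c, (a : T).1.2 ⊆ Qu := fun a ha => subset_biUnion_of_mem (u := fun a : T => a.1.2) ha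
    have hkey : ∀ a ∈ c, ∀ z ∈ Qu, z ∉ (a : T).1.2 → z ∉ (a : T).1.1 := by
      intro a ha z hz hza hzX
      obtain ⟨b, hb, hzb⟩ := mem_iUnion₂.1 hz
      have hab : a = b ∨ r a b ∨ r b a := by
        by_cases h : a = b
        · exact Or.inl h
        · exact Or.inr (hc ha hb h)
      rcases hab with rfl | hab | hab
      · exact hza hzb
      · exact disjoint_left.1 hab.2.2 ⟨hzb, hza⟩ hzX
      · exact hza (hab.2.1 hzb)
    have hQE : Qu ⊆ M.E := iUnion₂_subset fun a ha => (contract_indep_iff_closure.1 a.2.2.2).1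
    have hP : PreWave M N Xu Qu := by
      refine ⟨?_, ?_, ?_⟩
      · refine iUnion₂_subset fun a ha => ?_
        exact a.2.1.trans (hXu a ha)
      · refine iUnion₂_subset fun a ha => ?_
        exact a.2.2.1.trans (N.closure_subset_closure (hQu a ha))
      · rw [contract_indep_iff_closure]
        refine ⟨hQE, ?_⟩
        · intro p hp hcl
          obtain ⟨a, ha, hpa⟩ := mem_iUnion₂.1 hp
          refine (contract_indep_iff_closure.1 a.2.2.2).2 p hpa ?_
          refine M.closure_subset_closure ?_ hcl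
          rintro z (⟨hz, hzp⟩ | ⟨hzE, hzX⟩)
          · by_cases hza : z ∈ (a : T).1.2
            · exact Or.inl ⟨hza, hzp⟩
            · exact Or.inr ⟨hQE hz, hkey a ha z hz hza⟩
          · exact Or.inr ⟨hzE, fun h => hzX (hXu a ha h)⟩
    refine ⟨⟨(Xu, Qu), hP⟩, fun a ha => ⟨hXu a ha, hQu a ha, disjoint_left.2 ?_⟩⟩
    exact fun z hz hzX => hkey a ha z hz.1 hz.2 hzX
  obtain ⟨m, hm⟩ := exists_maximal_of_chains_bounded hchain htrans
  have hmax : ∀ X' Q', PreWave M N X' Q' → X' ⊆ m.1.1 := by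
    intro X' Q' h
    have hu := m.2.union h
    have hr : r m ⟨(m.1.1 ∪ X', m.1.2 ∪ (Q' \ m.1.1)), hu⟩ := by
      refine ⟨subset_union_left, subset_union_left, disjoint_left.2 ?_⟩
      rintro z ⟨hz | hz, hz'⟩ hzX
      · exact hz' hz
      · exact hz.2 hzX
    have := (hm _ hr).1
    exact subset_union_right.trans this
  obtain ⟨P, hP⟩ := N.exists_isBasis m.1.2 (m.2.1.trans (m.2.2.1.trans (N.closure_subset_ground _)))
  refine ⟨m.1.1, P, ⟨?_, m.2.2.2.subset hP.subset⟩, ?_⟩
  · refine hP.indep.isBasis_of_subset_of_subset_closure (hP.subset.trans m.2.1) ?_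
    rw [hP.closure_eq_closure]
    exact m.2.2.1
  · rintro X' P' ⟨h1, h2⟩
    exact hmax X' P' ⟨h1.subset, h1.subset_closure, h2⟩

/-! ### Bad elements and the contraction lemma -/

/-- `e` is bad: some wave contains `e`, while the complement of the wave spans `e` in `M`. -/
def Bad (M N : Matroid α) (e : α) : Prop :=
  ∃ W J, IsWave M N W J ∧ e ∈ W ∧ e ∈ M.closure (M.E \ W)

/-- An element that is good and non-loop keeps the pair unhindered when contracted. -/
theorem unhindered_contract (hE : M.E = N.E) (hU : Unhindered M N) (hB : ¬ Bad M N e)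
    (he : e ∈ M.E) : Unhindered (M ／ {e}) (N ／ {e}) := by
  classical
  have heN : e ∈ N.E := hE ▸ he
  -- `e` is not an `N`-loop
  have hnl : N.IsNonloop e := by
    by_contra hcon
    have hloop : N.IsLoop e := (not_isNonloop_iff heN).1 hcon
    have hw : IsWave M N {e} ∅ := by
      refine ⟨?_, empty_indep _⟩
      rw [empty_isBasis_iff, singleton_subset_iff]
      exact hloop
    have ht := hU _ _ hw
    rw [empty_union, singleton_subset_iff] at ht
    exact hB ⟨{e}, ∅, hw, rfl, ht⟩
  rintro X' P' ⟨h1, h2⟩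
  have hX'E : X' ⊆ N.E \ {e} := h1.subset_ground
  have hP'X' : P' ⊆ X' := h1.subset
  have heX' : e ∉ X' := fun h => (hX'E h).2 rfl
  have hX'M : X' ⊆ M.E := fun z hz => hE ▸ (hX'E hz).1
  set Z := X' ∪ {e} with hZ
  set Y := M.E \ Z with hY
  have hY2 : (M ／ {e}).E \ X' = Y := by
    rw [contract_ground, hY, hZ, sdiff_sdiff, union_comm]
  rw [hY2, contract_contract] at h2
  rw [hY2, contract_closure_eq]
  have hZE : Z ⊆ M.E := union_subset hX'M (singleton_subset_iff.2 he)
  have hN1 : N.IsBasis (P' ∪ {e}) Z := hnl.indep.union_isBasis_union_of_contract_isBasis h1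
  have hYZ : M.E \ Y = Z := sdiff_sdiff_eq_self hZE
  have hP'Y : (M ／ Y).Indep P' := contract_indep_mono subset_union_right h2
  by_cases heY : e ∈ M.closure Y
  swap
  · -- first case : `e` is not spanned by the complement
    have h3 : (M ／ Y).Indep {e} := by
      rw [indep_singleton]
      exact contract_isNonloop_iff.2 ⟨he, heY⟩
    have hw : IsWave M N Z (P' ∪ {e}) := by
      refine ⟨hN1, ?_⟩
      refine contract_indep_union h2 h3 ?_ subset_union_right
      exact subset_union_left.trans' (singleton_subset_iff.2 (mem_singleton e))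
    have ht := hU _ _ hw
    intro z hz
    refine ⟨?_, fun h => heX' (h ▸ hz)⟩
    have hz' := ht (subset_union_left hz : z ∈ Z)
    refine M.closure_subset_closure ?_ hz'
    rw [← hY]
    rintro w ((hw | hw) | hw)
    · exact Or.inl (Or.inl hw)
    · exact Or.inr hw
    · exact Or.inl (Or.inr hw)
  -- second case: `e` is spanned by the complement
  set A := M ／ Y with hA
  set B := N ↾ Z with hB'
  have hZN : Z ⊆ N.E := hE ▸ hZE
  have hAE : A.E = B.E := by
    rw [hA, hB', contract_ground, restrict_ground_eq, hYZ]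
  have hAP : A.Indep P' := hP'Y
  have hN0 : N.Indep P' := hN1.indep.subset subset_union_left
  have hBP : B.Indep P' := by
    rw [hB', restrict_indep_iff]
    exact ⟨hN0, hP'X'.trans subset_union_left⟩
  have hP'e : e ∉ P' := fun h => heX' (hP'X' h)
  by_cases hAug : ∃ n, Aug A B P' n
  · exfalso
    obtain ⟨n, hn⟩ := hAug
    obtain ⟨J', hJ'A, hJ'B, hJ'⟩ := exists_augment (M := A) (N := B)
      (φ := fun J => (B ／ J).eRank)
      (fun _ _ hx _ hxB => eRank_contract_insert hxB hx) n P' hAP hBP hn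
    have hbase : B.IsBase (P' ∪ {e}) := by
      rw [hB', isBase_restrict_iff hZN]
      exact hN1
    have hrk : (B ／ P').eRank = 1 := by
      have : (B ／ P').IsBase {e} := by
        rw [hBP.contract_isBase_iff]
        refine ⟨by rwa [union_comm], by simpa using hP'e⟩
      rw [← this.encard_eq_eRank, encard_singleton]
    have hrk0 : (B ／ J').eRank = 0 := by
      rw [hrk] at hJ'
      simpa using hJ'
    obtain ⟨K, hK⟩ := (B ／ J').exists_isBase
    have hK0 : K = ∅ := by
      rw [← encard_eq_zero, hK.encard_eq_eRank, hrk0]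
    subst hK0
    obtain ⟨hK1, -⟩ := hJ'B.contract_isBase_iff.1 hK
    rw [empty_union, hB', isBase_restrict_iff hZN] at hK1
    refine hB ⟨Z, J', ⟨hK1, hJ'A⟩, subset_union_right (mem_singleton e), heY⟩
  -- no augmenting walk: split
  obtain ⟨J1, J2, hdj, hU12, hcl⟩ :=
    exists_split_of_no_aug hAE hAP hBP (fun n h => hAug ⟨n, h⟩)
  have hJ1P : J1 ⊆ P' := hU12 ▸ subset_union_left
  have hJ2P : J2 ⊆ P' := hU12 ▸ subset_union_right
  have hJ2Z : J2 ⊆ Z := hJ2P.trans (hP'X'.trans subset_union_left)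
  set W := N.closure J2 ∩ Z with hW
  have hBcl : B.closure J2 = W := by
    rw [hB', restrict_closure_eq N hJ2Z hZN]
  have hAcl : A.closure J1 = M.closure (J1 ∪ Y) \ Y := contract_closure_eq _ _ _
  have hAE' : A.E = Z := by rw [hA, contract_ground, hYZ]
  have hcover : ∀ z ∈ Z, z ∉ W → z ∈ M.closure (J1 ∪ Y) := by
    intro z hz hzW
    have : z ∈ A.closure J1 ∪ B.closure J2 := by rw [hcl, hAE']; exact hz
    rw [hBcl] at this
    rcases this with h | h
    · rw [hAcl] at h
      exact h.1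
    · exact absurd h hzW
  have hYcl : Y ⊆ M.closure (J1 ∪ Y) := fun z hz =>
    M.mem_closure_of_mem' (Or.inr hz) hz.1
  have hcompl : M.E \ W ⊆ M.closure (J1 ∪ Y) := by
    rintro z ⟨hzE, hzW⟩
    by_cases hzZ : z ∈ Z
    · exact hcover z hzZ hzW
    · exact hYcl ⟨hzE, hzZ⟩
  have hJ2W : J2 ⊆ W :=
    subset_inter (N.subset_closure _ (hJ2P.trans hN0.subset_ground)) hJ2Z
  have hwave : IsWave M N W J2 := by
    refine ⟨(hN0.subset hJ2P).isBasis_of_subset_of_subset_closure hJ2W inter_subset_left, ?_⟩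
    refine contract_indep_of_subset_closure (Y := J1 ∪ Y) ?_ hcompl
    have hAJ1 : A.Indep J1 := hAP.subset hJ1P
    have h12 : A.Indep (J1 ∪ J2) := by rwa [hU12]
    rw [hAJ1.union_indep_iff_contract_indep, sdiff_eq_left.2 hdj.symm, hA, contract_contract,
      union_comm] at h12
    exact h12
  have ht := hU _ _ hwave
  have hsub : M.closure (J1 ∪ Y) ⊆ M.closure (P' ∪ Y) :=
    M.closure_subset_closure (union_subset_union_left _ hJ1P)
  intro z hz
  refine ⟨?_, fun h => heX' (h ▸ hz)⟩
  have hzZ : z ∈ Z := subset_union_left hz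
  refine M.closure_subset_closure (subset_union_left (t := {e})) ?_
  by_cases hzW : z ∈ W
  · have := ht hzW
    refine M.closure_subset_closure_of_subset_closure ?_ this
    refine union_subset ?_ (hcompl.trans hsub)
    exact fun w hw => M.mem_closure_of_mem' (Or.inl (hJ2P hw))
      (hX'M (hP'X' (hJ2P hw)))
  · exact hsub (hcover z hzZ hzW)

/-- An element outside all waves is not bad. -/
lemma not_bad_of_notMem {X : Set α} {y : α} (hX : ∀ X' P', IsWave M N X' P' → X' ⊆ X)
    (hy : y ∉ X) : ¬ Bad M N y := by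
  rintro ⟨W, J, hw, hyW, -⟩
  exact hy (hX W J hw hyW)

/-- An element of the basis of a wave is not bad. -/
theorem not_bad_of_mem_wave (hU : Unhindered M N) {X P : Set α}
    (hw : IsWave M N X P) {p : α} (hp : p ∈ P) : ¬ Bad M N p := by
  classical
  rintro ⟨W, J, ⟨hJ1, hJ2⟩, hpW, hpcl⟩
  obtain ⟨hP1, hP2⟩ := hw
  have hXN : X ⊆ N.E := hP1.subset_ground
  have hWN : W ⊆ N.E := hJ1.subset_ground
  set U := X ∪ W with hUdef
  have hUN : U ⊆ N.E := union_subset hXN hWN
  have hJPN : J ∪ P ⊆ N.E :=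
    union_subset (hJ1.subset.trans hWN) (hP1.subset.trans hXN)
  obtain ⟨B, hB, hJB⟩ := hJ1.indep.subset_isBasis_of_subset
    (subset_union_left : J ⊆ J ∪ P) hJPN
  have hBJP : B ⊆ J ∪ P := hB.subset
  set T := B \ J with hT
  have hBU : B = J ∪ T := (union_sdiff_cancel hJB).symm
  have hTP : T ⊆ P := by
    rintro z ⟨hz, hzJ⟩
    exact (hBJP hz).resolve_left hzJ
  have hTW : Disjoint T W := by
    refine disjoint_left.2 fun z hz hzW => ?_
    have hz1 : z ∈ N.closure J := hJ1.subset_closure hzW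
    have : z ∈ N.closure J ∩ B := ⟨hz1, hz.1⟩
    rw [hB.indep.closure_inter_eq_self_of_subset hJB] at this
    exact hz.2 this
  have hBasisU : N.IsBasis B U := by
    refine hB.indep.isBasis_of_subset_of_subset_closure ?_ ?_
    · exact hBJP.trans (union_subset (hJ1.subset.trans subset_union_right)
        (hP1.subset.trans subset_union_left))
    · rw [hB.closure_eq_closure]
      refine union_subset ?_ ?_
      · exact hP1.subset_closure.trans (N.closure_subset_closure subset_union_right)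
      · exact hJ1.subset_closure.trans (N.closure_subset_closure subset_union_left)
  have hMT : (M ／ (M.E \ U)).Indep T := by
    refine contract_indep_mono ?_ (hP2.subset hTP)
    exact sdiff_subset_sdiff_right subset_union_left
  have hTE : T ⊆ M.E := (contract_indep_iff_closure.1 hMT).1
  have hMB : (M ／ (M.E \ U)).Indep B := by
    rw [hBU]
    refine contract_indep_union hJ2 hMT ?_ ?_
    · exact fun z hz => ⟨hTE hz, disjoint_left.1 hTW hz⟩
    · exact sdiff_subset_sdiff_right subset_union_right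
  have ht := hU U B ⟨hBasisU, hMB⟩
  set S := T ∪ (M.E \ U) with hS
  have hSV : S ⊆ M.E \ W := by
    refine union_subset (fun z hz => ⟨hTE hz, disjoint_left.1 hTW hz⟩) ?_
    exact sdiff_subset_sdiff_right subset_union_right
  have hVS : M.E \ W ⊆ M.closure S := by
    intro x hx
    by_cases hxU : x ∈ U
    · have h1 := ht hxU
      have h2 : B ∪ (M.E \ U) = J ∪ S := by
        rw [hS, hBU, union_assoc]
      rw [h2] at h1
      exact mem_closure_of_skew hJ2 hSV hx hx.1 h1
    · exact M.mem_closure_of_mem' (Or.inr ⟨hx.1, hxU⟩) hx.1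
  have hpS : p ∈ M.closure S := M.closure_subset_closure_of_subset_closure hVS hpcl
  refine (contract_indep_iff_closure.1 hP2).2 p hp (M.closure_subset_closure ?_ hpS)
  refine union_subset ?_ ?_
  · intro z hz
    refine Or.inl ⟨hTP hz, ?_⟩
    rintro rfl
    exact disjoint_left.1 hTW hz hpW
  · exact fun z hz => Or.inr ⟨hz.1, fun h => hz.2 (subset_union_left h)⟩

/-! ### Duality -/

/-- If `(M, N)` is unhindered then so is `(N✶, M✶)`. -/
theorem Unhindered.dual (hE : M.E = N.E) (hU : Unhindered M N) : Unhindered N✶ M✶ := by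
  classical
  rintro X Q ⟨h1, h2⟩
  have hXE : X ⊆ M.E := h1.subset_ground
  have hXN : X ⊆ N.E := hE ▸ hXE
  rw [dual_ground] at h2 ⊢
  -- a base of `N ↾ X` disjoint from `Q`
  have hQN : (N ＼ (N.E \ X))✶.Indep Q := by
    rw [dual_delete]
    exact h2
  obtain ⟨-, P, hP, hPQ⟩ := dual_indep_iff_exists'.1 hQN
  have hPX : N.IsBasis P X := by
    have := delete_isBase_iff.1 hP
    rwa [sdiff_sdiff_eq_self hXN] at this
  -- the complement of `Q` is a base of the contraction of `M`
  have hQb : (M ／ (M.E \ X))✶.IsBase Q := by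
    rw [dual_contract, delete_isBase_iff, dual_ground, sdiff_sdiff_eq_self hXE]
    exact h1
  have hcomp := hQb.compl_isBase_of_dual
  have hgr : (M ／ (M.E \ X)).E = X := by
    rw [contract_ground, sdiff_sdiff_eq_self hXE]
  rw [hgr] at hcomp
  have hPsub : P ⊆ X \ Q := subset_sdiff.2 ⟨hPX.subset, hPQ.symm⟩
  have hw : IsWave M N X P := ⟨hPX, hcomp.indep.subset hPsub⟩
  have ht := hU _ _ hw
  -- so `P` spans the contraction, hence it is this base
  have hspan : (M ／ (M.E \ X)).Spanning P := by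
    have hPE : P ⊆ (M ／ (M.E \ X)).E := by rw [hgr]; exact hPX.subset
    rw [spanning_iff_ground_subset_closure hPE, hgr, contract_closure_eq]
    exact fun z hz => ⟨ht hz, fun h => h.2 hz⟩
  have hPeq : X \ Q = P := (hcomp.indep.eq_of_spanning_subset hspan hPsub).symm
  -- dualising
  have hbase : (N ＼ (N.E \ X))✶.IsBase Q := by
    have hQX : Q ⊆ X := h1.subset
    rw [dual_isBase_iff' , delete_ground, sdiff_sdiff_eq_self hXN]
    refine ⟨?_, hQX⟩
    rw [hPeq]
    exact hP
  rw [dual_delete] at hbase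
  have hcl := hbase.closure_eq
  rw [contract_closure_eq] at hcl
  intro z hz
  have : z ∈ (N✶ ／ (N.E \ X)).E := by
    rw [contract_ground, dual_ground, sdiff_sdiff_eq_self hXN]
    exact hz
  rw [← hcl] at this
  exact this.1

/-! ### The step lemma -/

/-- Every `M`-codependent set has an element whose contraction keeps the pair unhindered. -/
theorem exists_good_mem (hE : M.E = N.E) (hU : Unhindered M N) {D : Set α} (hD : M✶.Dep D) :
    ∃ y ∈ D, M.IsNonloop y ∧ N.IsNonloop y ∧ Unhindered (M ／ {y}) (N ／ {y}) := by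
  classical
  obtain ⟨K, hKD, hK⟩ := hD.exists_isCircuit_subset
  have hK' : M.IsCocircuit K := hK
  obtain ⟨X, P, hw, hX⟩ := exists_largest_wave (M := M) (N := N)
  by_cases hsub : K ⊆ X
  · -- `K` meets the basis of the wave
    have hne : (K ∩ P).Nonempty := by
      by_contra hcon
      rw [not_nonempty_iff_eq_empty] at hcon
      obtain ⟨y, hy⟩ := hK.nonempty
      have hdj : Disjoint K (P ∪ (M.E \ X)) := by
        refine disjoint_left.2 fun z hz h => ?_
        rcases h with h | h
        · have : z ∈ K ∩ P := ⟨hz, h⟩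
          rw [hcon] at this
          exact this
        · exact h.2 (hsub hz)
      have hycl := hU X P hw (hsub hy)
      have hyS : y ∉ P ∪ (M.E \ X) := disjoint_left.1 hdj hy
      obtain ⟨C, hCsub, hC, hyC⟩ := exists_isCircuit_of_mem_closure hycl hyS
      refine hC.inter_isCocircuit_ne_singleton hK' (e := y) ?_
      apply subset_antisymm
      · rintro z ⟨hzC, hzK⟩
        rcases hCsub hzC with h | h
        · exact h
        · exact absurd h (disjoint_left.1 hdj hzK)
      · exact singleton_subset_iff.2 ⟨hyC, hy⟩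
    obtain ⟨y, hyK, hyP⟩ := hne
    refine ⟨y, hKD hyK, hK'.isNonloop_of_mem hyK, hw.1.indep.isNonloop_of_mem hyP, ?_⟩
    exact unhindered_contract hE hU (not_bad_of_mem_wave hU hw hyP)
      (hK'.subset_ground hyK)
  · obtain ⟨y, hyK, hyX⟩ := not_subset.1 hsub
    have hyM : y ∈ M.E := hK'.subset_ground hyK
    have hyN : y ∈ N.E := hE ▸ hyM
    refine ⟨y, hKD hyK, hK'.isNonloop_of_mem hyK, ?_, ?_⟩
    · by_contra hcon
      have hloop : N.IsLoop y := (not_isNonloop_iff hyN).1 hcon
      have hwy : IsWave M N {y} ∅ := by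
        refine ⟨?_, empty_indep _⟩
        rw [empty_isBasis_iff, singleton_subset_iff]
        exact hloop
      exact hyX (hX _ _ hwy rfl)
    · exact unhindered_contract hE hU (not_bad_of_notMem hX hyX) hyM

/-! ### States of the recursion -/

/-- A state: `I` is a common independent set, `Z` a common coindependent set disjoint from `I`,
and the minor obtained by contracting `I` and deleting `Z` is unhindered. -/
structure St (A B : Matroid α) (I Z : Set α) : Prop where
  disj : Disjoint I Z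
  indA : A.Indep I
  indB : B.Indep I
  coA : A✶.Indep Z
  coB : B✶.Indep Z
  unh : Unhindered (A ／ I ＼ Z) (B ／ I ＼ Z)

variable {A B : Matroid α} {I Z : Set α}

lemma St.dual (hE : A.E = B.E) (h : St A B I Z) : St B✶ A✶ Z I := by
  have hE0 : (A ／ I ＼ Z).E = (B ／ I ＼ Z).E := by
    simp [hE]
  have := h.unh.dual hE0
  rw [dual_contract_delete, dual_contract_delete,
    ← contract_delete_comm _ h.disj.symm, ← contract_delete_comm _ h.disj.symm] at this
  refine ⟨h.disj.symm, h.coB, h.coA, ?_, ?_, this⟩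
  · rw [dual_dual]; exact h.indB
  · rw [dual_dual]; exact h.indA

lemma St.hit (hE : A.E = B.E) (h : St A B I Z) {D : Set α} (hD : A✶.Dep D) :
    ∃ I', I ⊆ I' ∧ St A B I' Z ∧ (I' ∩ D).Nonempty := by
  classical
  by_cases hne : (I ∩ D).Nonempty
  · exact ⟨I, Subset.rfl, h, hne⟩
  have hdj : Disjoint D I := by
    rw [disjoint_iff_inter_eq_empty, inter_comm]
    exact not_nonempty_iff_eq_empty.1 hne
  have hE0 : (A ／ I ＼ Z).E = (B ／ I ＼ Z).E := by
    simp [hE]
  have hdep : (A ／ I ＼ Z)✶.Dep (D \ Z) := by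
    rw [dual_contract_delete, ← contract_delete_comm _ h.disj.symm, delete_dep_iff,
      h.coA.contract_dep_iff]
    refine ⟨⟨disjoint_sdiff_left, ?_⟩, hdj.mono_left sdiff_subset⟩
    refine hD.superset (fun z hz => ?_) ?_
    · by_cases hzZ : z ∈ Z
      · exact Or.inr hzZ
      · exact Or.inl ⟨hz, hzZ⟩
    · exact union_subset (sdiff_subset.trans hD.subset_ground) h.coA.subset_ground
  obtain ⟨y, hyD, hyA, hyB, hyU⟩ := exists_good_mem hE0 h.unh hdep
  have hyI : y ∉ I := disjoint_left.1 hdj hyD.1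
  have hyZ : y ∉ Z := hyD.2
  have hyA' := contract_isNonloop_iff.1 ((delete_isNonloop_iff.1 hyA).1)
  have hyB' := contract_isNonloop_iff.1 ((delete_isNonloop_iff.1 hyB).1)
  refine ⟨insert y I, subset_insert _ _, ⟨?_, ?_, ?_, h.coA, h.coB, ?_⟩, ⟨y, mem_insert _ _, hyD.1⟩⟩
  · exact disjoint_insert_left.2 ⟨hyZ, h.disj⟩
  · exact (h.indA.insert_indep_iff_of_notMem hyI).2 hyA'
  · exact (h.indB.insert_indep_iff_of_notMem hyI).2 hyB'
  · have hsing : Disjoint ({y} : Set α) Z := by simpa using hyZ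
    rw [← contract_delete_comm _ hsing, ← contract_delete_comm _ hsing, contract_contract,
      contract_contract, union_singleton] at hyU
    exact hyU

lemma St.avoid (hE : A.E = B.E) (h : St A B I Z) {C : Set α} (hC : B.Dep C) :
    ∃ Z', Z ⊆ Z' ∧ St A B I Z' ∧ (Z' ∩ C).Nonempty := by
  have hE' : B✶.E = A✶.E := by simp [hE]
  have hC' : (B✶)✶.Dep C := by rwa [dual_dual]
  obtain ⟨Z', hZ', hst, hne⟩ := (h.dual hE).hit hE' hC'
  have := hst.dual hE'
  rw [dual_dual, dual_dual] at this
  exact ⟨Z', hZ', this, hne⟩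

/-- **Countable recursion.** For an unhindered pair and countable families of `M`-codependent and
of `N`-dependent sets, there are disjoint sets, the first meeting each member of the first family
and the second meeting each member of the second family. -/
theorem exists_hit_avoid (hE : M.E = N.E) (hU : Unhindered M N) {𝒟 𝒞 : Set (Set α)}
    (h𝒟 : 𝒟.Countable) (h𝒞 : 𝒞.Countable) (hD : ∀ D ∈ 𝒟, M✶.Dep D) (hC : ∀ C ∈ 𝒞, N.Dep C) :
    ∃ I Z : Set α, Disjoint I Z ∧ (∀ D ∈ 𝒟, (I ∩ D).Nonempty) ∧ (∀ C ∈ 𝒞, (Z ∩ C).Nonempty) := by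
  classical
  obtain ⟨d, hd⟩ := Set.countable_iff_exists_subset_range.1 h𝒟
  obtain ⟨c, hc⟩ := Set.countable_iff_exists_subset_range.1 h𝒞
  let T := {p : Set α × Set α // St M N p.1 p.2}
  have hstep : ∀ (p : T) (n : ℕ), ∃ q : T, p.1.1 ⊆ q.1.1 ∧ p.1.2 ⊆ q.1.2 ∧
      (M✶.Dep (d n) → (q.1.1 ∩ d n).Nonempty) ∧ (N.Dep (c n) → (q.1.2 ∩ c n).Nonempty) := by
    intro p n
    obtain ⟨I1, hI1, hst1, hne1⟩ : ∃ I1, p.1.1 ⊆ I1 ∧ St M N I1 p.1.2 ∧
        (M✶.Dep (d n) → (I1 ∩ d n).Nonempty) := by
      by_cases h : M✶.Dep (d n)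
      · obtain ⟨I1, h1, h2, h3⟩ := p.2.hit hE h
        exact ⟨I1, h1, h2, fun _ => h3⟩
      · exact ⟨p.1.1, Subset.rfl, p.2, fun h' => absurd h' h⟩
    obtain ⟨Z1, hZ1, hst2, hne2⟩ : ∃ Z1, p.1.2 ⊆ Z1 ∧ St M N I1 Z1 ∧
        (N.Dep (c n) → (Z1 ∩ c n).Nonempty) := by
      by_cases h : N.Dep (c n)
      · obtain ⟨Z1, h1, h2, h3⟩ := hst1.avoid hE h
        exact ⟨Z1, h1, h2, fun _ => h3⟩
      · exact ⟨p.1.2, Subset.rfl, hst1, fun h' => absurd h' h⟩
    exact ⟨⟨(I1, Z1), hst2⟩, hI1, hZ1, hne1, hne2⟩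
  choose step hstep1 hstep2 hstep3 hstep4 using hstep
  have hinit : St M N ∅ ∅ := by
    refine ⟨disjoint_empty _, M.empty_indep, N.empty_indep, M✶.empty_indep, N✶.empty_indep, ?_⟩
    simpa using hU
  let seq : ℕ → T := fun n => Nat.rec ⟨(∅, ∅), hinit⟩ (fun n p => step p n) n
  have hsucc : ∀ n, seq (n + 1) = step (seq n) n := fun n => rfl
  have hmonoI : Monotone (fun n => (seq n).1.1) := monotone_nat_of_le_succ fun n => by
    rw [hsucc]; exact hstep1 _ _
  have hmonoZ : Monotone (fun n => (seq n).1.2) := monotone_nat_of_le_succ fun n => by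
    rw [hsucc]; exact hstep2 _ _
  refine ⟨⋃ n, (seq n).1.1, ⋃ n, (seq n).1.2, ?_, ?_, ?_⟩
  · refine disjoint_left.2 fun z hz hz' => ?_
    obtain ⟨a, ha⟩ := mem_iUnion.1 hz
    obtain ⟨b, hb⟩ := mem_iUnion.1 hz'
    have h1 := hmonoI (le_max_left a b) ha
    have h2 := hmonoZ (le_max_right a b) hb
    exact disjoint_left.1 (seq (max a b)).2.disj h1 h2
  · intro D hDm
    obtain ⟨n, rfl⟩ := hd hDm
    obtain ⟨x, hx1, hx2⟩ := hstep3 (seq n) n (hD _ hDm)
    exact ⟨x, mem_iUnion.2 ⟨n + 1, by rw [hsucc]; exact hx1⟩, hx2⟩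
  · intro C hCm
    obtain ⟨n, rfl⟩ := hc hCm
    obtain ⟨x, hx1, hx2⟩ := hstep4 (seq n) n (hC _ hCm)
    exact ⟨x, mem_iUnion.2 ⟨n + 1, by rw [hsucc]; exact hx1⟩, hx2⟩

/-! ### Reduction to the unhindered case -/

/-- The residual of a largest wave has no nonempty wave, so it is unhindered. -/
theorem unhindered_residual (hE : M.E = N.E) {X P : Set α} (hw : IsWave M N X P)
    (hX : ∀ X' P', IsWave M N X' P' → X' ⊆ X) : Unhindered (M ＼ X) (N ／ X) := by
  rintro X' P' ⟨h1, h2⟩
  have hdjX : Disjoint X' X := (subset_sdiff.1 h1.subset_ground).2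
  have hP'X' : P' ⊆ X' := h1.subset
  have hX'N : X' ⊆ N.E := (subset_sdiff.1 h1.subset_ground).1
  have hind : N.Indep (P' ∪ P) := (hw.1.contract_indep_iff.1 h1.indep).1
  have hbasis : N.IsBasis (P' ∪ P) (X' ∪ X) := by
    refine hind.isBasis_of_subset_of_subset_closure
      (union_subset_union hP'X' hw.1.subset) ?_
    have hXcl : X ⊆ N.closure (P' ∪ P) :=
      hw.1.subset_closure.trans (N.closure_subset_closure subset_union_right)
    refine union_subset ?_ hXcl
    have h3 := h1.subset_closure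
    rw [contract_closure_eq] at h3
    refine h3.trans (sdiff_subset.trans ?_)
    refine N.closure_subset_closure_of_subset_closure (union_subset ?_ hXcl)
    exact fun z hz => N.mem_closure_of_mem' (Or.inl hz) (hX'N (hP'X' hz))
  have hY : (M ＼ X).E \ X' = M.E \ (X' ∪ X) := by
    rw [delete_ground, sdiff_sdiff, union_comm]
  rw [hY] at h2
  have hdY : Disjoint (M.E \ (X' ∪ X)) X :=
    disjoint_sdiff_left.mono_right subset_union_right
  rw [← contract_delete_comm _ hdY, delete_indep_iff] at h2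
  have hw' : IsWave M N (X' ∪ X) (P' ∪ P) := by
    refine ⟨hbasis, ?_⟩
    rw [union_comm P' P]
    refine contract_indep_union hw.2 h2.1 ?_ ?_
    · intro z hz
      exact ⟨hE ▸ hX'N (hP'X' hz), disjoint_left.1 hdjX (hP'X' hz)⟩
    · exact sdiff_subset_sdiff_right subset_union_right
  have hsub : X' ⊆ X := subset_union_left.trans (hX _ _ hw')
  intro z hz
  exact absurd (hsub hz) (disjoint_left.1 hdjX hz)

/-- **Countable approximation.** For arbitrary matroids on a common ground set there is a wave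
`(X, P)` which is largest, such that for all countable families of cocircuits of `M` and of circuits
of `N` there is `J` outside `X`, meeting all the cocircuits not inside `X`, with `P ∪ J` containing
none of the circuits. -/
theorem exists_countable_approx (hE : M.E = N.E) :
    ∃ X P : Set α, N.IsBasis P X ∧ (M ／ (M.E \ X)).Indep P ∧
      (∀ X' P', N.IsBasis P' X' → (M ／ (M.E \ X')).Indep P' → X' ⊆ X) ∧
      ∀ 𝒟 𝒞 : Set (Set α), 𝒟.Countable → 𝒞.Countable → (∀ D ∈ 𝒟, M.IsCocircuit D) →
        (∀ C ∈ 𝒞, N.IsCircuit C) →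
        ∃ J, J ⊆ M.E \ X ∧ (∀ D ∈ 𝒟, D ⊆ X ∨ (D ∩ J).Nonempty) ∧ (∀ C ∈ 𝒞, ¬ C ⊆ P ∪ J) := by
  classical
  obtain ⟨X, P, hw, hX⟩ := exists_largest_wave (M := M) (N := N)
  refine ⟨X, P, hw.1, hw.2, fun X' P' h1 h2 => hX X' P' ⟨h1, h2⟩, ?_⟩
  intro 𝒟 𝒞 h𝒟 h𝒞 hD hC
  have hU := unhindered_residual hE hw hX
  have hE1 : (M ＼ X).E = (N ／ X).E := by simp [hE]
  let 𝒟' : Set (Set α) := (fun D => D \ X) '' {D ∈ 𝒟 | ¬ D ⊆ X}
  let 𝒞' : Set (Set α) := (fun C => C \ X) '' {C ∈ 𝒞 | ¬ C ⊆ X}
  have h𝒟' : 𝒟'.Countable := (h𝒟.mono (fun _ h => h.1)).image _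
  have h𝒞' : 𝒞'.Countable := (h𝒞.mono (fun _ h => h.1)).image _
  obtain ⟨I, Z, hdj, hI, hZ⟩ := exists_hit_avoid hE1 hU h𝒟' h𝒞'
    (by
      rintro _ ⟨D, ⟨hD1, hD2⟩, rfl⟩
      rw [dual_delete]
      exact (hD D hD1).isCircuit.contract_dep_of_not_subset hD2)
    (by
      rintro _ ⟨C, ⟨hC1, hC2⟩, rfl⟩
      exact (hC C hC1).contract_dep_of_not_subset hC2)
  refine ⟨I ∩ (M.E \ X), inter_subset_right, ?_, ?_⟩
  · intro D hDm
    by_cases hDX : D ⊆ X
    · exact Or.inl hDX
    · right
      obtain ⟨z, hzI, hzD, hzX⟩ := hI _ ⟨D, ⟨hDm, hDX⟩, rfl⟩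
      exact ⟨z, hzD, hzI, (hD D hDm).subset_ground hzD, hzX⟩
  · intro C hCm hsub
    by_cases hCX : C ⊆ X
    · have hCP : C ⊆ P := by
        intro z hz
        rcases hsub hz with h | h
        · exact h
        · exact absurd (hCX hz) h.2.2
      exact (hC C hCm).not_indep (hw.1.indep.subset hCP)
    · obtain ⟨z, hzZ, hzC, hzX⟩ := hZ _ ⟨C, ⟨hCm, hCX⟩, rfl⟩
      rcases hsub hzC with h | h
      · exact hzX (hw.1.subset h)
      · exact disjoint_left.1 hdj h.1 hzZ

/-- The pair satisfies intersection as soon as `M` has countably many cocircuits and `N` has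
countably many circuits. -/
theorem sat_of_countable (hE : M.E = N.E) (hM : {D | M.IsCocircuit D}.Countable)
    (hN : {C | N.IsCircuit C}.Countable) : SatisfiesIntersection M N := by
  classical
  obtain ⟨X, P, hP1, hP2, -, h⟩ := exists_countable_approx (M := M) (N := N) hE
  obtain ⟨J, hJ, hD, hC⟩ := h _ _ hM hN (fun _ h => h) (fun _ h => h)
  have hJE : J ⊆ M.E := hJ.trans sdiff_subset
  obtain ⟨I, hI⟩ := M.exists_isBasis J hJE
  have hPJ : N.Indep (P ∪ J) := by
    have hsub : P ∪ J ⊆ N.E := union_subset (hP1.indep.subset_ground) (hE ▸ hJE)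
    rw [indep_iff_forall_subset_not_isCircuit hsub]
    exact fun C hC1 hC2 => hC C hC2 hC1
  refine ⟨I, P, ?_, ?_, ?_, ?_⟩
  · refine disjoint_left.2 fun z hzI hzP => ?_
    exact (hJ (hI.subset hzI)).2 (hP1.subset hzP)
  · rw [union_comm]
    have hI0 : (M ／ ∅).Indep I := by rw [contract_empty]; exact hI.indep
    have := contract_indep_union hP2 hI0 (hI.subset.trans hJ) (empty_subset _)
    rwa [contract_empty] at this
  · exact hPJ.subset (union_subset (hI.subset.trans subset_union_right) subset_union_left)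
  · apply subset_antisymm
    · exact union_subset (M.closure_subset_ground _) (hE ▸ N.closure_subset_ground _)
    intro z hz
    by_cases hzX : z ∈ X
    · exact Or.inr (hP1.subset_closure hzX)
    left
    rw [hI.closure_eq_closure]
    by_contra hcon
    have hnl : (M ／ J).IsNonloop z := contract_isNonloop_iff.2 ⟨hz, hcon⟩
    obtain ⟨B, hB, hzB⟩ := hnl.exists_mem_isBase
    have hK := fundCocircuit_isCocircuit hzB hB
    obtain ⟨hK1, hK2⟩ := contract_isCocircuit_iff.1 hK
    have hzK : z ∈ (M ／ J).fundCocircuit z B := mem_fundCocircuit _ _ _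
    rcases hD _ hK1 with h1 | ⟨w, hw1, hw2⟩
    · exact hzX (h1 hzK)
    · exact disjoint_left.1 hK2 hw1 hw2

end Vale.Agent.P068
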